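import Vale.Agent.P025.R2.H632.LogDer

/-!
# (1.6) in the namespace `P025H373`, with the statements of `H373/Spec.lean`
-/

set_option linter.unusedSectionVars false

open Polynomial

universe u

namespace P025H373

noncomputable section

variable (C : Type u) [NontriviallyNormedField C] [IsUltrametricDist C] [CompleteSpace C]
  [IsAlgClosed C]

/-- winding number on the unit circle (`= 0` at `0`). -/
def wind (x : F0 C) : ℤ := P025H632.wind C x

variable {C}

@[simp] theorem wind_zero : wind C 0 = 0 := P025H632.wind_zero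

@[simp] theorem wind_one : wind C 1 = 0 := P025H632.wind_one

theorem wind_mul {x y : F0 C} (hx : x ≠ 0) (hy : y ≠ 0) : wind C (x * y) = wind C x + wind C y :=
  P025H632.wind_mul hx hy

theorem wind_inv (x : F0 C) : wind C x⁻¹ = - wind C x := P025H632.wind_inv x

theorem wind_eq_of_norm_sub_lt {x y : F0 C} (h : ‖x - y‖ < ‖y‖) : wind C x = wind C y :=
  P025H632.wind_eq_of_norm_sub_lt h

theorem wind_one_add {h : F0 C} (hh : ‖h‖ < 1) : wind C (1 + h) = 0 := P025H632.wind_one_add hh

open Classical in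
theorem wind_poly {P : C[X]} (hP : P ≠ 0) : wind C (aeval (tt C) P) =
    Multiset.card (P.roots.filter fun a => ‖a‖ ≤ 1) := P025H632.wind_poly hP

theorem wind_const (c : C) : wind C (algebraMap C (F0 C) c) = 0 := P025H632.wind_const c

theorem wind_tt : wind C (tt C) = 1 := P025H632.wind_tt

theorem wind_nonneg {x : F0 C} (hx : x ∈ A1 C) : 0 ≤ wind C x := P025H632.wind_nonneg hx

theorem wind_nonpos {x : F0 C} (hx : x ∈ A2 C) : wind C x ≤ 0 := P025H632.wind_nonpos hx

theorem inv_mem_A1 {x : F0 C} (hx : x ∈ A1 C) (h0 : x ≠ 0) (h : wind C x = 0) : x⁻¹ ∈ A1 C :=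
  P025H632.inv_mem_A1 hx h0 h

theorem inv_mem_A2 {x : F0 C} (hx : x ∈ A2 C) (h0 : x ≠ 0) (h : wind C x = 0) : x⁻¹ ∈ A2 C :=
  P025H632.inv_mem_A2 hx h0 h

theorem wind_pow {x : F0 C} (hx : x ≠ 0) (n : ℕ) : wind C (x ^ n) = n * wind C x :=
  P025H632.wind_pow hx n

theorem wind_div {x y : F0 C} (hx : x ≠ 0) (hy : y ≠ 0) : wind C (x / y) = wind C x - wind C y :=
  P025H632.wind_div hx hy

end

end P025H373
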