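import Vale.Agent.P025.R2.H632.Wind

/-!
# The residue of the logarithmic derivative is the winding number; splitting up to a rational
function
-/

set_option linter.unusedSectionVars false
set_option linter.unusedVariables false

open Polynomial P025H373

universe u

namespace P025H632

noncomputable section

variable {C : Type u} [NormedField C] [IsUltrametricDist C] [CompleteSpace C]

/-- up to a rational function every nonzero element of `F0` is `(1 + h₁) (1 + h₂)` -/
theorem exists_mul_split_F0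
    (hs : ∀ x : F0 C, ∃ a ∈ A1 C, ∃ b ∈ A2 C, a + b = x ∧ ‖a‖ ≤ ‖x‖ ∧ ‖b‖ ≤ ‖x‖)
    {x : F0 C} (h0 : x ≠ 0) : ∃ g : RatFunc C, g ≠ 0 ∧
    ∃ h₁ ∈ A1 C, ‖h₁‖ < 1 ∧ ∃ h₂ ∈ A2 C, ‖h₂‖ < 1 ∧
      x = algebraMap (RatFunc C) (F0 C) g * (1 + h₁) * (1 + h₂) := by
  obtain ⟨g, hg⟩ := exists_approx x h0
  have hn : ‖algebraMap (RatFunc C) (F0 C) g‖ = ‖x‖ :=
    norm_eq_of_sub_lt (by rwa [norm_sub_rev])
  have hgF : algebraMap (RatFunc C) (F0 C) g ≠ 0 := by
    rw [← norm_pos_iff, hn]; exact norm_pos_iff.2 h0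
  have hg0 : g ≠ 0 := by
    rintro rfl
    exact hgF (map_zero _)
  have hu : ‖(algebraMap (RatFunc C) (F0 C) g)⁻¹ * x - 1‖ < 1 := by
    have h1 : (algebraMap (RatFunc C) (F0 C) g)⁻¹ * x - 1 =
        (algebraMap (RatFunc C) (F0 C) g)⁻¹ * (x - algebraMap (RatFunc C) (F0 C) g) := by
      rw [mul_sub, inv_mul_cancel₀ hgF]
    rw [h1, norm_mul, norm_inv, hn, inv_mul_lt_iff₀ (norm_pos_iff.2 h0), mul_one]
    exact hg
  obtain ⟨P, hP, Q, hQ, hPQ, hP1, hQ1⟩ := P025H373.exists_mul_split (A1 C).toSubring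
    (A2 C).toSubring isClosed_A1' isClosed_A2' hs hu
  refine ⟨g, hg0, P - 1, (A1 C).sub_mem hP (A1 C).one_mem, lt_of_le_of_lt hP1 hu, Q - 1,
    (A2 C).sub_mem hQ (A2 C).one_mem, lt_of_le_of_lt hQ1 hu, ?_⟩
  rw [add_sub_cancel, add_sub_cancel, mul_assoc, hPQ, ← mul_assoc, mul_inv_cancel₀ hgF, one_mul]

section logder

variable (D : Derivation C (F0 C) (F0 C)) (res : F0 C →L[C] C)

theorem logDer_mul {x y : F0 C} (hx : x ≠ 0) (hy : y ≠ 0) :
    D (x * y) / (x * y) = D x / x + D y / y := by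
  rw [Derivation.leibniz, smul_eq_mul, smul_eq_mul]
  field_simp
  ring

theorem norm_logDer_sub_le (hD : ∀ x, ‖D x‖ ≤ ‖x‖) {x y : F0 C} (hx : x ≠ 0)
    (h : ‖x - y‖ < ‖x‖) : ‖D x / x - D y / y‖ ≤ ‖x - y‖ / ‖x‖ := by
  have hn : ‖y‖ = ‖x‖ := norm_eq_of_sub_lt (by rwa [norm_sub_rev])
  have hx' := norm_pos_iff.2 hx
  have hy : y ≠ 0 := by rw [← norm_pos_iff, hn]; exact hx'
  have h1 : D x / x - D y / y = (D (x - y) * y - (x - y) * D y) / (x * y) := by
    rw [map_sub]
    field_simp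
    ring
  rw [h1, norm_div, norm_mul, hn]
  rw [div_le_div_iff₀ (by positivity) hx']
  have h2 : ‖D (x - y) * y - (x - y) * D y‖ ≤ ‖x - y‖ * ‖x‖ := by
    rw [sub_eq_add_neg]
    refine (IsUltrametricDist.norm_add_le_max _ _).trans (max_le ?_ ?_)
    · rw [norm_mul, hn]
      exact mul_le_mul_of_nonneg_right (hD _) hx'.le
    · rw [norm_neg, norm_mul]
      refine mul_le_mul_of_nonneg_left ?_ (norm_nonneg _)
      rw [← hn]; exact hD y
  calc ‖D (x - y) * y - (x - y) * D y‖ * ‖x‖ ≤ (‖x - y‖ * ‖x‖) * ‖x‖ :=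
        mul_le_mul_of_nonneg_right h2 hx'.le
    _ = ‖x - y‖ * (‖x‖ * ‖x‖) := by ring

variable [IsAlgClosed C]

/-- the residue of the logarithmic derivative of a nonzero polynomial -/
theorem res_logDer_poly (htt : D (tt C) = 1)
    (hin : ∀ a : C, ‖a‖ ≤ 1 → res (tt C - algebraMap C (F0 C) a)⁻¹ = 1)
    (hA1 : ∀ x ∈ A1 C, res x = 0) {P : C[X]} (hP : P ≠ 0) :
    res (D (aeval (tt C) P) / aeval (tt C) P) = (top P : C) := by
  classical
  have hlin : ∀ a : C, res (D (tt C - algebraMap C (F0 C) a) / (tt C - algebraMap C (F0 C) a)) =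
      if ‖a‖ ≤ 1 then 1 else 0 := by
    intro a
    rw [map_sub, htt, Derivation.map_algebraMap, sub_zero, one_div]
    split_ifs with ha
    · exact hin a ha
    · apply hA1
      have e : tt C - algebraMap C (F0 C) a = aeval (tt C) (X - Polynomial.C a) := by
        rw [map_sub, aeval_X, aeval_C]
      have hne : tt C - algebraMap C (F0 C) a ≠ 0 := by
        rw [← norm_pos_iff, e, norm_aeval_tt]
        exact gp_pos (X_sub_C_ne_zero a)
      refine inv_mem_A1 (by rw [e]; exact aeval_mem_A1 _) hne ?_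
      rw [e, wind_aeval (X_sub_C_ne_zero a), top_X_sub_C_of_gt (not_le.1 ha)]
      rfl
  have hne : ∀ a : C, tt C - algebraMap C (F0 C) a ≠ 0 := by
    intro a
    have e : tt C - algebraMap C (F0 C) a = aeval (tt C) (X - Polynomial.C a) := by
      rw [map_sub, aeval_X, aeval_C]
    rw [← norm_pos_iff, e, norm_aeval_tt]
    exact gp_pos (X_sub_C_ne_zero a)
  rw [top_eq_countP hP]
  have hc : P.leadingCoeff ≠ 0 := leadingCoeff_ne_zero.2 hP
  conv_lhs => rw [(IsAlgClosed.splits P).eq_prod_roots]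
  generalize P.roots = s
  generalize P.leadingCoeff = c at hc
  induction s using Multiset.induction with
  | empty =>
    simp only [Multiset.map_zero, Multiset.prod_zero, mul_one, Multiset.countP_zero,
      Nat.cast_zero, aeval_C, Derivation.map_algebraMap, zero_div, map_zero]
  | cons a s ih =>
    have hPne : aeval (tt C) (Polynomial.C c * (s.map fun a => X - Polynomial.C a).prod) ≠ 0 := by
      rw [← norm_pos_iff, norm_aeval_tt]
      refine gp_pos (mul_ne_zero (C_ne_zero.2 hc) ?_)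
      exact (monic_multiset_prod_of_monic _ _ fun a _ => monic_X_sub_C a).ne_zero
    rw [Multiset.map_cons, Multiset.prod_cons, mul_left_comm, map_mul, map_sub, aeval_X, aeval_C,
      logDer_mul D (hne a) hPne, map_add, hlin, ih]
    by_cases ha : ‖a‖ ≤ 1
    · rw [if_pos ha, Multiset.countP_cons_of_pos (p := fun a => ‖a‖ ≤ 1) s ha]; push_cast; ring
    · rw [if_neg ha, Multiset.countP_cons_of_neg (p := fun a => ‖a‖ ≤ 1) s ha]; ring

theorem res_logDer_of (htt : D (tt C) = 1) (hD : ∀ x, ‖D x‖ ≤ ‖x‖) (hres : ∀ x, ‖res x‖ ≤ ‖x‖)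
    (hin : ∀ a : C, ‖a‖ ≤ 1 → res (tt C - algebraMap C (F0 C) a)⁻¹ = 1)
    (hA1 : ∀ x ∈ A1 C, res x = 0) {x : F0 C} (h0 : x ≠ 0) :
    res (D x / x) = (wind C x : C) := by
  have hx' := norm_pos_iff.2 h0
  -- rational functions
  have hrat : ∀ g : RatFunc C, g ≠ 0 → res (D (algebraMap (RatFunc C) (F0 C) g) /
      algebraMap (RatFunc C) (F0 C) g) = (rw0 g : C) := by
    intro g hg
    obtain ⟨P, Q, hP, hQ, rfl⟩ := exists_rep g hg
    have hPne : aeval (tt C) P ≠ 0 := by
      rw [← norm_pos_iff, norm_aeval_tt]; exact gp_pos hP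
    have hQne : aeval (tt C) Q ≠ 0 := by
      rw [← norm_pos_iff, norm_aeval_tt]; exact gp_pos hQ
    rw [rw0_div hP hQ, map_div₀ (algebraMap (RatFunc C) (F0 C)), ← aeval_tt, ← aeval_tt]
    set y := aeval (tt C) P / aeval (tt C) Q with hy
    have hyne : y ≠ 0 := div_ne_zero hPne hQne
    have h1 : aeval (tt C) P = y * aeval (tt C) Q := by rw [hy, div_mul_cancel₀ _ hQne]
    have h2 := res_logDer_poly D res htt hin hA1 hP
    rw [h1, logDer_mul D hyne hQne, map_add, res_logDer_poly D res htt hin hA1 hQ] at h2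
    rw [eq_sub_of_add_eq h2]
    push_cast; ring
  -- approximation
  have key : ∀ ε > 0, ‖res (D x / x) - (wind C x : C)‖ ≤ ε := by
    intro ε hε
    obtain ⟨g, hg⟩ := denseRange_algebraMap.exists_dist_lt x
      (ε := min ‖x‖ (ε * ‖x‖)) (lt_min hx' (by positivity))
    rw [dist_eq_norm] at hg
    have hg1 : ‖x - algebraMap (RatFunc C) (F0 C) g‖ < ‖x‖ := lt_of_lt_of_le hg (min_le_left _ _)
    have hg2 : ‖x - algebraMap (RatFunc C) (F0 C) g‖ < ε * ‖x‖ :=
      lt_of_lt_of_le hg (min_le_right _ _)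
    have hg0 : g ≠ 0 := by
      rintro rfl
      rw [map_zero, sub_zero] at hg1
      exact lt_irrefl _ hg1
    rw [wind_of_approx hg1, ← hrat g hg0, ← map_sub]
    refine (hres _).trans ((norm_logDer_sub_le D hD h0 hg1).trans ?_)
    rw [div_le_iff₀ hx']
    exact hg2.le
  have h3 : ‖res (D x / x) - (wind C x : C)‖ ≤ 0 := le_of_forall_pos_le_add (by simpa using key)
  rw [← sub_eq_zero, ← norm_le_zero_iff]
  exact h3

end logder

end

end P025H632
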