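import Vale.Agent.P025.R2.H373.Defs

/-!
# The top index of a polynomial for the Gauss norm

For a polynomial `P` over an ultrametric field, `IsTop P i` says that `i` is the largest index
with `‖P.coeff i‖ = gp P`; it is the number of zeros of `P` in the closed unit disc.
-/

open Polynomial P025H373

namespace P025H632

set_option linter.unusedSectionVars false
set_option linter.unusedVariables false

variable {C : Type*} [NormedField C] [IsUltrametricDist C]

theorem gp_sub_le (P Q : C[X]) : gp (P - Q) ≤ max (gp P) (gp Q) := by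
  rw [sub_eq_add_neg, ← gp_neg Q]
  exact gp_add_le_max _ _

theorem gp_pos {P : C[X]} (h : P ≠ 0) : 0 < gp P :=
  lt_of_le_of_ne (gp_nonneg P) (fun h' => h (gp_eq_zero.1 h'.symm))

/-- `i` is the largest index where the Gauss norm is attained. -/
def IsTop (P : C[X]) (i : ℕ) : Prop :=
  ‖P.coeff i‖ = gp P ∧ ∀ j, i < j → ‖P.coeff j‖ < gp P

theorem IsTop.unique {P : C[X]} {i j : ℕ} (hi : IsTop P i) (hj : IsTop P j) : i = j := by
  rcases lt_trichotomy i j with h | h | h
  · exact absurd hj.1 (hi.2 j h).ne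
  · exact h
  · exact absurd hi.1 (hj.2 i h).ne

theorem exists_isTop {P : C[X]} (h : P ≠ 0) : ∃ i, IsTop P i := by
  classical
  obtain ⟨i₀, hi₀'⟩ := exists_coeff_eq P
  have hi₀ := hi₀'.symm
  have hle : i₀ ≤ P.natDegree := by
    by_contra hcon
    push Not at hcon
    have := gp_pos h
    rw [hi₀, coeff_eq_zero_of_natDegree_lt hcon, norm_zero] at this
    exact lt_irrefl _ this
  refine ⟨Nat.findGreatest (fun i => ‖P.coeff i‖ = gp P) P.natDegree,
    Nat.findGreatest_spec (P := fun i => ‖P.coeff i‖ = gp P) hle hi₀.symm, ?_⟩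
  intro j hj
  refine lt_of_le_of_ne (norm_coeff_le P j) ?_
  intro hcon
  rcases le_or_gt j P.natDegree with hjd | hjd
  · exact Nat.findGreatest_is_greatest hj hjd hcon
  · rw [coeff_eq_zero_of_natDegree_lt hjd, norm_zero] at hcon
    exact (gp_pos h).ne hcon

open Classical in
/-- the largest index where the Gauss norm is attained (the number of zeros in the closed
unit disc) -/
noncomputable def top (P : C[X]) : ℕ := if h : P ≠ 0 then (exists_isTop h).choose else 0

theorem isTop_top {P : C[X]} (h : P ≠ 0) : IsTop P (top P) := by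
  unfold top
  rw [dif_pos h]
  exact (exists_isTop h).choose_spec

theorem IsTop.top_eq {P : C[X]} (h : P ≠ 0) {i : ℕ} (hi : IsTop P i) : top P = i :=
  (isTop_top h).unique hi

theorem IsTop.mul {P Q : C[X]} (hP : P ≠ 0) (hQ : Q ≠ 0) {i j : ℕ} (hi : IsTop P i)
    (hj : IsTop Q j) : IsTop (P * Q) (i + j) := by
  have hp := gp_pos hP
  have hq := gp_pos hQ
  -- bound of single products
  have hterm : ∀ a b : ℕ, (i < a ∨ j < b) → ‖P.coeff a * Q.coeff b‖ < gp P * gp Q := by
    intro a b hab
    rw [norm_mul]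
    rcases hab with h | h
    · calc ‖P.coeff a‖ * ‖Q.coeff b‖ ≤ ‖P.coeff a‖ * gp Q :=
            mul_le_mul_of_nonneg_left (norm_coeff_le Q b) (norm_nonneg _)
        _ < gp P * gp Q := mul_lt_mul_of_pos_right (hi.2 a h) hq
    · calc ‖P.coeff a‖ * ‖Q.coeff b‖ ≤ gp P * ‖Q.coeff b‖ :=
            mul_le_mul_of_nonneg_right (norm_coeff_le P a) (norm_nonneg _)
        _ < gp P * gp Q := mul_lt_mul_of_pos_left (hj.2 b h) hp
  refine ⟨?_, ?_⟩
  · rw [gp_mul, coeff_mul]
    have h1 : ∑ x ∈ Finset.HasAntidiagonal.antidiagonal (i + j), P.coeff x.1 * Q.coeff x.2 =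
        P.coeff i * Q.coeff j + ∑ x ∈ (Finset.HasAntidiagonal.antidiagonal (i + j)).erase (i, j),
          P.coeff x.1 * Q.coeff x.2 := by
      rw [Finset.add_sum_erase _ (fun x : ℕ × ℕ => P.coeff x.1 * Q.coeff x.2)
        (by simp : (i, j) ∈ Finset.HasAntidiagonal.antidiagonal (i + j))]
    have h2 : ‖∑ x ∈ (Finset.HasAntidiagonal.antidiagonal (i + j)).erase (i, j), P.coeff x.1 * Q.coeff x.2‖ <
        gp P * gp Q := by
      rcases ((Finset.HasAntidiagonal.antidiagonal (i + j)).erase (i, j)).eq_empty_or_nonempty with h | h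
      · rw [h, Finset.sum_empty, norm_zero]; positivity
      · obtain ⟨x, hx, hle⟩ := IsUltrametricDist.exists_norm_finsetSum_le_of_nonempty h
          (fun x : ℕ × ℕ => P.coeff x.1 * Q.coeff x.2)
        refine lt_of_le_of_lt hle (hterm _ _ ?_)
        rw [Finset.mem_erase, Finset.HasAntidiagonal.mem_antidiagonal] at hx
        by_contra hcon
        push Not at hcon
        exact hx.1 (Prod.ext (by simp; omega) (by simp; omega))
    have h3 : ‖P.coeff i * Q.coeff j‖ = gp P * gp Q := by
      rw [norm_mul, hi.1, hj.1]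
    rw [h1]
    rw [IsUltrametricDist.norm_add_eq_max_of_norm_ne_norm (by rw [h3]; exact h2.ne'), h3,
      max_eq_left h2.le]
  · intro k hk
    rw [gp_mul, coeff_mul]
    obtain ⟨x, hx, hle⟩ := IsUltrametricDist.exists_norm_finsetSum_le_of_nonempty
      (⟨(0, k), by simp⟩ : (Finset.HasAntidiagonal.antidiagonal k).Nonempty)
      (fun x : ℕ × ℕ => P.coeff x.1 * Q.coeff x.2)
    refine lt_of_le_of_lt hle (hterm _ _ ?_)
    rw [Finset.HasAntidiagonal.mem_antidiagonal] at hx
    omega

theorem top_mul {P Q : C[X]} (hP : P ≠ 0) (hQ : Q ≠ 0) : top (P * Q) = top P + top Q :=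
  ((isTop_top hP).mul hP hQ (isTop_top hQ)).top_eq (mul_ne_zero hP hQ)

theorem gp_congr {P Q : C[X]} (h : gp (P - Q) < gp P) :
    gp Q = gp P := by
  have h1 : gp Q ≤ gp P := by
    have := gp_sub_le P (P - Q)
    rw [sub_sub_cancel] at this
    exact this.trans (max_le le_rfl h.le)
  have h2 : gp P ≤ max (gp (P - Q)) (gp Q) := by
    have := gp_add_le_max (P - Q) Q
    rwa [sub_add_cancel] at this
  rcases le_max_iff.1 h2 with h3 | h3
  · exact absurd h (not_lt.2 h3)
  · exact le_antisymm h1 h3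

theorem IsTop.congr {P Q : C[X]} (h : gp (P - Q) < gp P) {i : ℕ} (hi : IsTop P i) :
    IsTop Q i := by
  have hn := gp_congr h
  have hc : ∀ j, ‖P.coeff j - Q.coeff j‖ < gp P := by
    intro j
    rw [← coeff_sub]
    exact lt_of_le_of_lt (norm_coeff_le _ j) h
  refine ⟨?_, ?_⟩
  · rw [hn, ← hi.1]
    have h1 : ‖P.coeff i - Q.coeff i‖ < ‖P.coeff i‖ := by rw [hi.1]; exact hc i
    have h2 : Q.coeff i = P.coeff i - (P.coeff i - Q.coeff i) := by ring
    rw [h2, sub_eq_add_neg, IsUltrametricDist.norm_add_eq_max_of_norm_ne_norm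
      (by rw [norm_neg]; exact h1.ne'), norm_neg, max_eq_left h1.le]
  · intro j hj
    rw [hn]
    have h2 : Q.coeff j = P.coeff j - (P.coeff j - Q.coeff j) := by ring
    rw [h2]
    rw [sub_eq_add_neg]
    refine lt_of_le_of_lt (IsUltrametricDist.norm_add_le_max _ _)
      (max_lt (hi.2 j hj) (by rw [norm_neg]; exact hc j))

theorem top_congr {P Q : C[X]} (hP : P ≠ 0) (h : gp (P - Q) < gp P) :
    top Q = top P := by
  have hQ : Q ≠ 0 := by
    rintro rfl
    rw [sub_zero] at h
    exact lt_irrefl _ h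
  exact ((isTop_top hP).congr h).top_eq hQ

theorem top_C {a : C} (ha : a ≠ 0) : top (Polynomial.C a) = 0 := by
  refine IsTop.top_eq (C_ne_zero.2 ha) ⟨by simp, ?_⟩
  intro j hj
  rw [coeff_C_of_ne_zero hj.ne', norm_zero, gp_C]
  exact norm_pos_iff.2 ha

theorem gp_X_sub_C (a : C) : gp (X - Polynomial.C a) = max 1 ‖a‖ := by
  apply le_antisymm
  · rw [gp_le_iff]
    intro i
    rcases i with _ | _ | i
    · simp
    · simp [coeff_X, coeff_C]
    · simp [coeff_X, coeff_C]
  · apply max_le
    · have := norm_coeff_le (X - Polynomial.C a) 1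
      simpa [coeff_X, coeff_C] using this
    · have := norm_coeff_le (X - Polynomial.C a) 0
      simpa [coeff_X, coeff_C] using this

theorem top_X_sub_C_of_le {a : C} (ha : ‖a‖ ≤ 1) : top (X - Polynomial.C a) = 1 := by
  refine IsTop.top_eq (X_sub_C_ne_zero a) ⟨?_, ?_⟩
  · rw [gp_X_sub_C, max_eq_left ha]; simp [coeff_X, coeff_C]
  · intro j hj
    rw [gp_X_sub_C, max_eq_left ha]
    rw [coeff_sub, coeff_X_of_ne_one hj.ne', coeff_C_of_ne_zero (by omega), sub_zero, norm_zero]
    exact one_pos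

theorem top_X_sub_C_of_gt {a : C} (ha : 1 < ‖a‖) : top (X - Polynomial.C a) = 0 := by
  refine IsTop.top_eq (X_sub_C_ne_zero a) ⟨?_, ?_⟩
  · rw [gp_X_sub_C, max_eq_right ha.le]; simp
  · intro j hj
    rw [gp_X_sub_C, max_eq_right ha.le]
    rcases eq_or_ne j 1 with rfl | hj1
    · simpa [coeff_C] using ha
    · rw [coeff_sub, coeff_X_of_ne_one hj1, coeff_C_of_ne_zero (by omega), sub_zero, norm_zero]
      exact zero_lt_one.trans ha

theorem top_X : top (X : C[X]) = 1 := by
  have := top_X_sub_C_of_le (C := C) (a := 0) (by simp)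
  simpa using this

/-- the top index of a product of linear factors is the number of roots in the closed unit
disc -/
theorem top_multiset_prod (s : Multiset C) (c : C) (hc : c ≠ 0) :
    top (Polynomial.C c * (s.map fun a => X - Polynomial.C a).prod) =
      Multiset.countP (fun a => ‖a‖ ≤ 1) s := by
  induction s using Multiset.induction with
  | empty => simp [top_C hc]
  | cons a s ih =>
    have hne : Polynomial.C c * (s.map fun a => X - Polynomial.C a).prod ≠ 0 := by
      refine mul_ne_zero (C_ne_zero.2 hc) ?_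
      refine (monic_multiset_prod_of_monic _ _ fun a _ => monic_X_sub_C a).ne_zero
    rw [Multiset.map_cons, Multiset.prod_cons, mul_left_comm, top_mul (X_sub_C_ne_zero a) hne, ih]
    by_cases ha : ‖a‖ ≤ 1
    · rw [top_X_sub_C_of_le ha, Multiset.countP_cons_of_pos (p := fun a => ‖a‖ ≤ 1) s ha]; ring
    · rw [top_X_sub_C_of_gt (not_le.1 ha), Multiset.countP_cons_of_neg (p := fun a => ‖a‖ ≤ 1) s ha]; ring

theorem top_eq_countP [IsAlgClosed C] {P : C[X]} (hP : P ≠ 0) :
    top P = Multiset.countP (fun a => ‖a‖ ≤ 1) P.roots := by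
  conv_lhs => rw [(IsAlgClosed.splits P).eq_prod_roots]
  exact top_multiset_prod _ _ (leadingCoeff_ne_zero.2 hP)

end P025H632
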