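import Vale.Agent.P025.R2.H632.Top
import Vale.Agent.P025.R2.H373.Split

/-!
# The winding number on the Gauss field
-/

set_option linter.unusedSectionVars false
set_option linter.unusedVariables false

open Polynomial P025H373

universe u

namespace P025H632

noncomputable section

variable {C : Type u} [NormedField C] [IsUltrametricDist C]

/-! ### rational functions -/

/-- winding number of a rational function -/
def rw0 (f : RatFunc C) : ℤ := (top f.num : ℤ) - top f.denom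

theorem rw0_div {P Q : C[X]} (hP : P ≠ 0) (hQ : Q ≠ 0) :
    rw0 (algebraMap C[X] (RatFunc C) P / algebraMap C[X] (RatFunc C) Q) =
      (top P : ℤ) - top Q := by
  set f := algebraMap C[X] (RatFunc C) P / algebraMap C[X] (RatFunc C) Q with hf
  have hf0 : f ≠ 0 := div_ne_zero (RatFunc.algebraMap_ne_zero hP) (RatFunc.algebraMap_ne_zero hQ)
  have hn : f.num ≠ 0 := RatFunc.num_ne_zero hf0
  have hd : f.denom ≠ 0 := f.denom_ne_zero
  have h1 : f.num * Q = P * f.denom := by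
    apply RatFunc.algebraMap_injective C
    rw [map_mul, map_mul]
    have h2 := f.num_div_denom
    rw [hf, eq_comm, div_eq_div_iff (RatFunc.algebraMap_ne_zero hQ)
      (RatFunc.algebraMap_ne_zero (by rw [← hf]; exact hd))] at h2
    exact h2.symm
  have h3 : top f.num + top Q = top P + top f.denom := by
    rw [← top_mul hn hQ, ← top_mul hP hd, h1]
  unfold rw0
  omega

theorem exists_rep (f : RatFunc C) (hf : f ≠ 0) : ∃ P Q : C[X], P ≠ 0 ∧ Q ≠ 0 ∧
    f = algebraMap C[X] (RatFunc C) P / algebraMap C[X] (RatFunc C) Q :=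
  ⟨f.num, f.denom, RatFunc.num_ne_zero hf, f.denom_ne_zero, f.num_div_denom.symm⟩

theorem rw0_mul {f g : RatFunc C} (hf : f ≠ 0) (hg : g ≠ 0) : rw0 (f * g) = rw0 f + rw0 g := by
  obtain ⟨P, Q, hP, hQ, rfl⟩ := exists_rep f hf
  obtain ⟨R, S, hR, hS, rfl⟩ := exists_rep g hg
  rw [div_mul_div_comm, ← map_mul, ← map_mul, rw0_div (mul_ne_zero hP hR) (mul_ne_zero hQ hS),
    rw0_div hP hQ, rw0_div hR hS, top_mul hP hR, top_mul hQ hS]
  push_cast; ring

theorem rw0_poly {P : C[X]} (hP : P ≠ 0) : rw0 (algebraMap C[X] (RatFunc C) P) = top P := by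
  have h := rw0_div hP (one_ne_zero (α := C[X]))
  have h1 : top (1 : C[X]) = 0 := by
    have := top_C (C := C) one_ne_zero
    simpa using this
  rw [map_one, div_one, h1] at h
  simpa using h

theorem rw0_congr {f g : RatFunc C} (h : gauss C (f - g) < gauss C f) : rw0 g = rw0 f := by
  have hf : f ≠ 0 := by
    rintro rfl
    rw [map_zero] at h
    exact absurd h (not_lt.2 ((gauss C).nonneg _))
  have hg : g ≠ 0 := by
    rintro rfl
    rw [sub_zero] at h
    exact lt_irrefl _ h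
  obtain ⟨P, Q, hP, hQ, rfl⟩ := exists_rep f hf
  obtain ⟨R, S, hR, hS, rfl⟩ := exists_rep g hg
  have hQ' := RatFunc.algebraMap_ne_zero hQ
  have hS' := RatFunc.algebraMap_ne_zero hS
  have e1 : algebraMap C[X] (RatFunc C) P / algebraMap C[X] (RatFunc C) Q =
      algebraMap C[X] (RatFunc C) (P * S) / algebraMap C[X] (RatFunc C) (Q * S) := by
    rw [map_mul, map_mul, mul_div_mul_right _ _ hS']
  have e2 : algebraMap C[X] (RatFunc C) P / algebraMap C[X] (RatFunc C) Q -
      algebraMap C[X] (RatFunc C) R / algebraMap C[X] (RatFunc C) S =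
      algebraMap C[X] (RatFunc C) (P * S - Q * R) / algebraMap C[X] (RatFunc C) (Q * S) := by
    rw [div_sub_div _ _ hQ' hS', ← map_mul, ← map_mul, ← map_sub, ← map_mul]
  rw [e2, e1, gauss_div, gauss_div] at h
  have hQS : 0 < gp (Q * S) := gp_pos (mul_ne_zero hQ hS)
  have h2 : gp (P * S - Q * R) < gp (P * S) := (div_lt_div_iff_of_pos_right hQS).1 h
  have h3 := top_congr (mul_ne_zero hP hS) h2
  rw [rw0_div hP hQ, rw0_div hR hS]
  rw [top_mul hQ hR, top_mul hP hS] at h3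
  omega

/-! ### the winding number on `F0` -/

theorem exists_approx (x : F0 C) (hx : x ≠ 0) : ∃ g : RatFunc C,
    ‖x - algebraMap (RatFunc C) (F0 C) g‖ < ‖x‖ := by
  obtain ⟨g, hg⟩ := denseRange_algebraMap.exists_dist_lt x (norm_pos_iff.2 hx)
  exact ⟨g, by rwa [← dist_eq_norm]⟩

theorem norm_eq_of_sub_lt {x y : F0 C} (h : ‖x - y‖ < ‖y‖) : ‖x‖ = ‖y‖ := by
  have h2 : x = y + (x - y) := by ring
  rw [h2, IsUltrametricDist.norm_add_eq_max_of_norm_ne_norm h.ne', max_eq_left h.le]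

open Classical in
variable (C) in
/-- winding number on the unit circle (`= 0` at `0`). -/
def wind (x : F0 C) : ℤ := if h : x ≠ 0 then rw0 (exists_approx x h).choose else 0

theorem wind_zero : wind C 0 = 0 := by
  unfold wind
  rw [dif_neg (by simp)]

theorem wind_of_approx {x : F0 C} {g : RatFunc C}
    (h : ‖x - algebraMap (RatFunc C) (F0 C) g‖ < ‖x‖) : wind C x = rw0 g := by
  have hx : x ≠ 0 := by
    rintro rfl
    rw [norm_zero] at h
    exact absurd h (not_lt.2 (norm_nonneg _))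
  unfold wind
  rw [dif_pos hx]
  set g' := (exists_approx x hx).choose with hg'
  have h' : ‖x - algebraMap (RatFunc C) (F0 C) g'‖ < ‖x‖ := (exists_approx x hx).choose_spec
  have hn : ‖x‖ = ‖algebraMap (RatFunc C) (F0 C) g‖ := by
    have h1 : ‖algebraMap (RatFunc C) (F0 C) g - x‖ < ‖x‖ := by rwa [norm_sub_rev]
    exact (norm_eq_of_sub_lt h1).symm
  apply rw0_congr
  rw [← P025H373.norm_algebraMap, ← P025H373.norm_algebraMap, map_sub, ← hn]
  have h2 : algebraMap (RatFunc C) (F0 C) g - algebraMap (RatFunc C) (F0 C) g' =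
      (x - algebraMap (RatFunc C) (F0 C) g') - (x - algebraMap (RatFunc C) (F0 C) g) := by ring
  rw [h2, sub_eq_add_neg]
  refine lt_of_le_of_lt (IsUltrametricDist.norm_add_le_max _ _) (max_lt h' ?_)
  rwa [norm_neg]

theorem wind_algebraMap (g : RatFunc C) (hg : g ≠ 0) :
    wind C (algebraMap (RatFunc C) (F0 C) g) = rw0 g := by
  apply wind_of_approx
  rw [sub_self, norm_zero, norm_pos_iff]
  exact (_root_.map_ne_zero _).2 hg

theorem wind_eq_of_norm_sub_lt {x y : F0 C} (h : ‖x - y‖ < ‖y‖) : wind C x = wind C y := by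
  have hn := norm_eq_of_sub_lt h
  have hy : y ≠ 0 := by
    rintro rfl
    rw [norm_zero] at h
    exact absurd h (not_lt.2 (norm_nonneg _))
  obtain ⟨g, hg⟩ := exists_approx y hy
  rw [wind_of_approx hg]
  apply wind_of_approx
  rw [hn]
  have h2 : x - algebraMap (RatFunc C) (F0 C) g = (x - y) + (y - algebraMap (RatFunc C) (F0 C) g) := by
    ring
  rw [h2]
  exact lt_of_le_of_lt (IsUltrametricDist.norm_add_le_max _ _) (max_lt h hg)

theorem wind_one : wind C (1 : F0 C) = 0 := by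
  have h := wind_algebraMap (C := C) (1 : RatFunc C) one_ne_zero
  rw [map_one] at h
  rw [h, ← map_one (algebraMap C[X] (RatFunc C)), rw0_poly one_ne_zero]
  have := top_C (C := C) one_ne_zero
  simpa using this

theorem wind_one_add {h : F0 C} (hh : ‖h‖ < 1) : wind C (1 + h) = 0 := by
  rw [wind_eq_of_norm_sub_lt (y := 1), wind_one]
  rw [add_sub_cancel_left, norm_one]
  exact hh

theorem wind_mul {x y : F0 C} (hx : x ≠ 0) (hy : y ≠ 0) :
    wind C (x * y) = wind C x + wind C y := by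
  obtain ⟨g, hg⟩ := exists_approx x hx
  obtain ⟨h, hh⟩ := exists_approx y hy
  have hx' := norm_pos_iff.2 hx
  have hy' := norm_pos_iff.2 hy
  have hgn : ‖algebraMap (RatFunc C) (F0 C) g‖ = ‖x‖ := norm_eq_of_sub_lt (by rwa [norm_sub_rev])
  have hhn : ‖algebraMap (RatFunc C) (F0 C) h‖ = ‖y‖ := norm_eq_of_sub_lt (by rwa [norm_sub_rev])
  have hg0 : g ≠ 0 := by
    rintro rfl
    rw [map_zero, norm_zero] at hgn
    exact hx'.ne hgn
  have hh0 : h ≠ 0 := by
    rintro rfl
    rw [map_zero, norm_zero] at hhn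
    exact hy'.ne hhn
  rw [wind_of_approx hg, wind_of_approx hh, ← rw0_mul hg0 hh0]
  apply wind_of_approx
  rw [map_mul]
  have h2 : x * y - algebraMap (RatFunc C) (F0 C) g * algebraMap (RatFunc C) (F0 C) h =
      x * (y - algebraMap (RatFunc C) (F0 C) h) +
        (x - algebraMap (RatFunc C) (F0 C) g) * algebraMap (RatFunc C) (F0 C) h := by ring
  rw [h2]
  refine lt_of_le_of_lt (IsUltrametricDist.norm_add_le_max _ _) (max_lt ?_ ?_)
  · rw [norm_mul, norm_mul]
    exact mul_lt_mul_of_pos_left hh hx'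
  · rw [norm_mul, norm_mul, hhn]
    exact mul_lt_mul_of_pos_right hg hy'

theorem wind_inv (x : F0 C) : wind C x⁻¹ = - wind C x := by
  rcases eq_or_ne x 0 with rfl | hx
  · rw [inv_zero, wind_zero]; rfl
  · have h := wind_mul hx (inv_ne_zero hx)
    rw [mul_inv_cancel₀ hx, wind_one] at h
    omega

theorem wind_div {x y : F0 C} (hx : x ≠ 0) (hy : y ≠ 0) :
    wind C (x / y) = wind C x - wind C y := by
  rw [div_eq_mul_inv, wind_mul hx (inv_ne_zero hy), wind_inv]; ring

theorem wind_pow {x : F0 C} (hx : x ≠ 0) (n : ℕ) : wind C (x ^ n) = n * wind C x := by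
  induction n with
  | zero => simp [wind_one]
  | succ n ih => rw [pow_succ, wind_mul (pow_ne_zero _ hx) hx, ih]; push_cast; ring

theorem aeval_tt (P : C[X]) : aeval (tt C) P =
    algebraMap (RatFunc C) (F0 C) (algebraMap C[X] (RatFunc C) P) :=
  (algebraMap_poly_eq P).symm

theorem norm_aeval_tt (P : C[X]) : ‖aeval (tt C) P‖ = gp P := by
  rw [aeval_tt, P025H373.norm_algebraMap, gauss_poly]

theorem wind_aeval {P : C[X]} (hP : P ≠ 0) : wind C (aeval (tt C) P) = top P := by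
  rw [aeval_tt, wind_algebraMap _ (RatFunc.algebraMap_ne_zero hP), rw0_poly hP]

theorem wind_const (c : C) : wind C (algebraMap C (F0 C) c) = 0 := by
  rcases eq_or_ne c 0 with rfl | hc
  · rw [map_zero, wind_zero]
  · have h := wind_aeval (C_ne_zero.2 hc)
    rw [aeval_C, top_C hc] at h
    exact h

theorem wind_tt : wind C (tt C) = 1 := by
  have h := wind_aeval (C := C) X_ne_zero
  rw [aeval_X, top_X] at h
  exact h

open Classical in
theorem wind_poly [IsAlgClosed C] {P : C[X]} (hP : P ≠ 0) : wind C (aeval (tt C) P) =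
    Multiset.card (P.roots.filter fun a => ‖a‖ ≤ 1) := by
  rw [wind_aeval hP, top_eq_countP hP, Multiset.countP_eq_card_filter]

/-! ### `A1` -/

/-- the polynomials are dense in `A1` -/
theorem exists_poly_approx {x : F0 C} (hx : x ∈ A1 C) {ε : ℝ} (hε : 0 < ε) :
    ∃ P : C[X], ‖x - aeval (tt C) P‖ < ε := by
  have h : x ∈ closure ((Algebra.adjoin C {tt C} : Subalgebra C (F0 C)) : Set (F0 C)) := hx
  rw [Metric.mem_closure_iff] at h
  obtain ⟨y, hy, hxy⟩ := h ε hε
  rw [SetLike.mem_coe, Algebra.adjoin_singleton_eq_range_aeval] at hy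
  obtain ⟨P, rfl⟩ := hy
  exact ⟨P, by rw [dist_eq_norm] at hxy; exact hxy⟩

theorem aeval_mem_A1 (P : C[X]) : aeval (tt C) P ∈ A1 C := by
  refine Subalgebra.le_topologicalClosure _ ?_
  rw [Algebra.adjoin_singleton_eq_range_aeval]
  exact ⟨P, rfl⟩

theorem wind_nonneg {x : F0 C} (hx : x ∈ A1 C) : 0 ≤ wind C x := by
  rcases eq_or_ne x 0 with rfl | h0
  · rw [wind_zero]
  · obtain ⟨P, hP⟩ := exists_poly_approx hx (norm_pos_iff.2 h0)
    have hn : ‖aeval (tt C) P‖ = ‖x‖ := norm_eq_of_sub_lt (by rwa [norm_sub_rev])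
    have hP0 : P ≠ 0 := by
      rintro rfl
      rw [map_zero, norm_zero] at hn
      exact h0 (norm_eq_zero.1 hn.symm)
    rw [wind_eq_of_norm_sub_lt (y := aeval (tt C) P) (by rwa [hn]), wind_aeval hP0]
    positivity

theorem isClosed_A1' : IsClosed (A1 C : Set (F0 C)) :=
  Subalgebra.isClosed_topologicalClosure _

theorem isClosed_A2' : IsClosed (A2 C : Set (F0 C)) :=
  Subalgebra.isClosed_topologicalClosure _

theorem inv_one_add_mem {A : Subalgebra C (F0 C)} (hA : IsClosed (A : Set (F0 C))) {h : F0 C}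
    (hh : h ∈ A) (h1 : ‖h‖ < 1) : (1 + h)⁻¹ ∈ A := by
  obtain ⟨y, hy, hy1, -, -⟩ := P025H373.exists_inv_mem A.toSubring hA hh h1
  have h2 : (1 + h) ≠ 0 := left_ne_zero_of_mul_eq_one hy1
  have h3 : (1 + h)⁻¹ = y := by
    rw [inv_eq_of_mul_eq_one_right hy1]
  rw [h3]; exact hy

/-- an element of `A1` with winding number `0` is `c (1 + h)` -/
theorem exists_of_wind_zero_A1 {x : F0 C} (hx : x ∈ A1 C) (h0 : x ≠ 0) (h : wind C x = 0) :
    ∃ c : C, c ≠ 0 ∧ ∃ h ∈ A1 C, ‖h‖ < 1 ∧ x = algebraMap C (F0 C) c * (1 + h) := by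
  obtain ⟨P, hP⟩ := exists_poly_approx hx (norm_pos_iff.2 h0)
  have hn : ‖aeval (tt C) P‖ = ‖x‖ := norm_eq_of_sub_lt (by rwa [norm_sub_rev])
  have hP0 : P ≠ 0 := by
    rintro rfl
    rw [map_zero, norm_zero] at hn
    exact h0 (norm_eq_zero.1 hn.symm)
  have hw : wind C x = top P := by
    rw [wind_eq_of_norm_sub_lt (y := aeval (tt C) P) (by rwa [hn]), wind_aeval hP0]
  have ht : top P = 0 := by omega
  have hT := isTop_top hP0
  rw [ht] at hT
  have hc0 : P.coeff 0 ≠ 0 := by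
    intro hc
    have := hT.1
    rw [hc, norm_zero] at this
    exact (gp_pos hP0).ne this
  set c := P.coeff 0 with hc
  have hcn : ‖algebraMap C (F0 C) c‖ = ‖x‖ := by
    rw [norm_algebraMap_C, hT.1, ← norm_aeval_tt, hn]
  have hcne : algebraMap C (F0 C) c ≠ 0 := by
    rw [← norm_pos_iff, hcn]; exact norm_pos_iff.2 h0
  refine ⟨c, hc0, x * (algebraMap C (F0 C) c)⁻¹ - 1, ?_, ?_, ?_⟩
  · refine (A1 C).sub_mem ((A1 C).mul_mem hx ?_) (A1 C).one_mem
    rw [← map_inv₀]
    exact (A1 C).algebraMap_mem _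
  · have h1 : x * (algebraMap C (F0 C) c)⁻¹ - 1 = (x - algebraMap C (F0 C) c) *
        (algebraMap C (F0 C) c)⁻¹ := by
      rw [sub_mul, mul_inv_cancel₀ hcne]
    rw [h1, norm_mul, norm_inv, hcn, ← div_eq_mul_inv, div_lt_one (norm_pos_iff.2 h0)]
    have h2 : x - algebraMap C (F0 C) c = (x - aeval (tt C) P) +
        aeval (tt C) (P - Polynomial.C c) := by
      rw [map_sub, aeval_C]; ring
    rw [h2]
    refine lt_of_le_of_lt (IsUltrametricDist.norm_add_le_max _ _) (max_lt hP ?_)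
    rw [norm_aeval_tt, ← hn, norm_aeval_tt, gp_lt_iff]
    intro i
    rcases Nat.eq_zero_or_pos i with rfl | hi
    · rw [coeff_sub, coeff_C_zero, ← hc, sub_self, norm_zero]
      exact gp_pos hP0
    · rw [coeff_sub, coeff_C_of_ne_zero hi.ne', sub_zero]
      exact hT.2 i hi
  · rw [add_sub_cancel, mul_left_comm, mul_inv_cancel₀ hcne, mul_one]

theorem inv_mem_A1 [CompleteSpace C] {x : F0 C} (hx : x ∈ A1 C) (h0 : x ≠ 0)
    (h : wind C x = 0) : x⁻¹ ∈ A1 C := by
  obtain ⟨c, hc, h, hh, hh1, rfl⟩ := exists_of_wind_zero_A1 hx h0 h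
  rw [mul_inv]
  refine (A1 C).mul_mem ?_ (inv_one_add_mem isClosed_A1' hh hh1)
  rw [← map_inv₀]
  exact (A1 C).algebraMap_mem _

/-! ### `A2` -/

theorem exists_pre2_approx {x : F0 C} (hx : x ∈ A2 C) {ε : ℝ} (hε : 0 < ε) :
    ∃ g ∈ pre2 C, ‖x - algebraMap (RatFunc C) (F0 C) g‖ < ε := by
  have h : x ∈ closure (((pre2 C).map (ιA C) : Subalgebra C (F0 C)) : Set (F0 C)) := hx
  rw [Metric.mem_closure_iff] at h
  obtain ⟨y, hy, hxy⟩ := h ε hε
  obtain ⟨g, hg, rfl⟩ := hy
  exact ⟨g, hg, by rw [dist_eq_norm] at hxy; exact hxy⟩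

theorem pre2_mem_A2 {g : RatFunc C} (hg : g ∈ pre2 C) :
    algebraMap (RatFunc C) (F0 C) g ∈ A2 C :=
  Subalgebra.le_topologicalClosure _ ⟨g, hg, rfl⟩

/-- the top index of a monic polynomial of norm at most `1` is its degree -/
theorem top_monic {S : C[X]} (hS : S.Monic) (h1 : ∀ i, ‖S.coeff i‖ ≤ 1) :
    top S = S.natDegree ∧ gp S = 1 := by
  have hg : gp S = 1 := by
    apply le_antisymm (gp_le_iff.2 h1)
    have := norm_coeff_le S S.natDegree
    rwa [hS.coeff_natDegree, norm_one] at this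
  refine ⟨?_, hg⟩
  refine IsTop.top_eq hS.ne_zero ⟨?_, ?_⟩
  · rw [hg, hS.coeff_natDegree, norm_one]
  · intro j hj
    rw [hg, coeff_eq_zero_of_natDegree_lt hj, norm_zero]
    exact one_pos

theorem top_le_natDegree {P : C[X]} (hP : P ≠ 0) : top P ≤ P.natDegree := by
  by_contra hcon
  push Not at hcon
  have h := (isTop_top hP).1
  rw [coeff_eq_zero_of_natDegree_lt hcon, norm_zero] at h
  exact (gp_pos hP).ne h

/-- a nonzero element of `A2` is close to some `P / S` in `pre2` -/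
theorem exists_div_approx {x : F0 C} (hx : x ∈ A2 C) (h0 : x ≠ 0) : ∃ P S : C[X], P ≠ 0 ∧
    S.Monic ∧ P.natDegree ≤ S.natDegree ∧ (∀ i, ‖S.coeff i‖ ≤ 1) ∧
    ‖x - aeval (tt C) P / aeval (tt C) S‖ < ‖x‖ ∧ gp P = ‖x‖ ∧
    wind C x = (top P : ℤ) - S.natDegree := by
  obtain ⟨g, ⟨P, S, hS, hd, h1, rfl⟩, hg⟩ := exists_pre2_approx hx (norm_pos_iff.2 h0)
  have hn : ‖algebraMap (RatFunc C) (F0 C) (algebraMap C[X] (RatFunc C) P /
      algebraMap C[X] (RatFunc C) S)‖ = ‖x‖ := norm_eq_of_sub_lt (by rwa [norm_sub_rev])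
  have hP0 : P ≠ 0 := by
    rintro rfl
    rw [map_zero, zero_div, map_zero, norm_zero] at hn
    exact h0 (norm_eq_zero.1 hn.symm)
  refine ⟨P, S, hP0, hS, natDegree_le_natDegree hd, h1, ?_, ?_, ?_⟩
  · rw [aeval_tt, aeval_tt, ← map_div₀]; exact hg
  · rw [P025H373.norm_algebraMap, gauss_div, (top_monic hS h1).2, div_one] at hn
    exact hn
  · rw [wind_of_approx hg, rw0_div hP0 hS.ne_zero, (top_monic hS h1).1]

theorem wind_nonpos {x : F0 C} (hx : x ∈ A2 C) : wind C x ≤ 0 := by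
  rcases eq_or_ne x 0 with rfl | h0
  · rw [wind_zero]
  · obtain ⟨P, S, hP, hS, hd, h1, -, -, hw⟩ := exists_div_approx hx h0
    have := top_le_natDegree hP
    omega

/-- an element of `A2` with winding number `0` is `g (1 + h)` with `g` a rational unit of `A2` -/
theorem exists_of_wind_zero_A2 {x : F0 C} (hx : x ∈ A2 C) (h0 : x ≠ 0) (h : wind C x = 0) :
    ∃ g : RatFunc C, g ≠ 0 ∧ g ∈ pre2 C ∧ g⁻¹ ∈ pre2 C ∧ ∃ h ∈ A2 C, ‖h‖ < 1 ∧
      x = algebraMap (RatFunc C) (F0 C) g * (1 + h) := by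
  obtain ⟨P, S, hP, hS, hd, h1, hxP, hPn, hw⟩ := exists_div_approx hx h0
  have htd := top_le_natDegree hP
  have ht : top P = P.natDegree := by omega
  have hdeg : P.natDegree = S.natDegree := by omega
  have hT := isTop_top hP
  rw [ht] at hT
  set c := P.leadingCoeff with hc
  have hc0 : c ≠ 0 := leadingCoeff_ne_zero.2 hP
  have hcn : ‖c‖ = gp P := hT.1
  -- the monic version of `P`
  set P1 := Polynomial.C c⁻¹ * P with hP1
  have hP1m : P1.Monic := by
    rw [hP1, mul_comm]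
    exact monic_mul_leadingCoeff_inv hP
  have hP1n : ∀ i, ‖P1.coeff i‖ ≤ 1 := by
    intro i
    rw [hP1, coeff_C_mul, norm_mul, norm_inv, hcn, inv_mul_le_iff₀ (gp_pos hP), mul_one]
    exact norm_coeff_le P i
  have hP1d : P1.natDegree = P.natDegree := by
    rw [hP1, natDegree_C_mul (inv_ne_zero hc0)]
  have hPP1 : P = Polynomial.C c * P1 := by
    rw [hP1, ← mul_assoc, ← Polynomial.C_mul, mul_inv_cancel₀ hc0, Polynomial.C_1, one_mul]
  set g : RatFunc C := algebraMap C[X] (RatFunc C) P / algebraMap C[X] (RatFunc C) S with hg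
  have hgne : g ≠ 0 :=
    div_ne_zero (RatFunc.algebraMap_ne_zero hP) (RatFunc.algebraMap_ne_zero hS.ne_zero)
  have hgmem : g ∈ pre2 C := ⟨P, S, hS, by
    rw [degree_eq_natDegree hP, degree_eq_natDegree hS.ne_zero, hdeg], h1, rfl⟩
  have hginv : g⁻¹ ∈ pre2 C := by
    refine ⟨Polynomial.C c⁻¹ * S, P1, hP1m, ?_, hP1n, ?_⟩
    · rw [degree_C_mul (inv_ne_zero hc0), degree_eq_natDegree hS.ne_zero,
        degree_eq_natDegree hP1m.ne_zero, hP1d, hdeg]
    · have h4 : algebraMap C[X] (RatFunc C) P1 ≠ 0 := RatFunc.algebraMap_ne_zero hP1m.ne_zero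
      have h5 : algebraMap C[X] (RatFunc C) P ≠ 0 := RatFunc.algebraMap_ne_zero hP
      rw [hg, inv_div, div_eq_div_iff h5 h4, ← map_mul, ← map_mul]
      congr 1
      rw [hPP1]
      have h6 : Polynomial.C c⁻¹ * Polynomial.C c = (1 : C[X]) := by
        rw [← Polynomial.C_mul, inv_mul_cancel₀ hc0, Polynomial.C_1]
      calc S * P1 = (Polynomial.C c⁻¹ * Polynomial.C c) * S * P1 := by rw [h6, one_mul]
        _ = Polynomial.C c⁻¹ * S * (Polynomial.C c * P1) := by ring
  have hgF : algebraMap (RatFunc C) (F0 C) g ≠ 0 := (_root_.map_ne_zero _).2 hgne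
  have hxg : ‖x - algebraMap (RatFunc C) (F0 C) g‖ < ‖x‖ := by
    rw [hg, map_div₀, ← aeval_tt, ← aeval_tt]; exact hxP
  have hgn : ‖algebraMap (RatFunc C) (F0 C) g‖ = ‖x‖ :=
    norm_eq_of_sub_lt (by rwa [norm_sub_rev])
  refine ⟨g, hgne, hgmem, hginv, x * (algebraMap (RatFunc C) (F0 C) g)⁻¹ - 1, ?_, ?_, ?_⟩
  · refine (A2 C).sub_mem ((A2 C).mul_mem hx ?_) (A2 C).one_mem
    rw [← map_inv₀]
    exact pre2_mem_A2 hginv
  · have h1 : x * (algebraMap (RatFunc C) (F0 C) g)⁻¹ - 1 =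
        (x - algebraMap (RatFunc C) (F0 C) g) * (algebraMap (RatFunc C) (F0 C) g)⁻¹ := by
      rw [sub_mul, mul_inv_cancel₀ hgF]
    rw [h1, norm_mul, norm_inv, hgn, ← div_eq_mul_inv, div_lt_one (norm_pos_iff.2 h0)]
    exact hxg
  · rw [add_sub_cancel, mul_left_comm, mul_inv_cancel₀ hgF, mul_one]

theorem inv_mem_A2 [CompleteSpace C] {x : F0 C} (hx : x ∈ A2 C) (h0 : x ≠ 0)
    (h : wind C x = 0) : x⁻¹ ∈ A2 C := by
  obtain ⟨g, hg0, hg, hg', h, hh, hh1, rfl⟩ := exists_of_wind_zero_A2 hx h0 h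
  rw [mul_inv]
  refine (A2 C).mul_mem ?_ (inv_one_add_mem isClosed_A2' hh hh1)
  rw [← map_inv₀]
  exact pre2_mem_A2 hg'

end

end P025H632
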